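import Vale.Agent.P205U.MainU

namespace Vale.Agent.Results.P205.AllTori

open scoped ContDiff

/-- Every smooth Riemannian metric on every torus.  Let `ω₁, ω₂` be linearly independent vectors
of the plane, `Λ` the lattice they span, and let `E, F, G` be ANY smooth `Λ`-periodic functions
with `E > 0` and `E G - F² > 0`, so that `g = E dx² + 2 F dx dy + G dy²` is an arbitrary smooth
Riemannian metric on the torus `ℝ² / Λ`.  Then `(ℝ² / Λ, g)` has a smooth isometric immersion into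
Euclidean `ℝ⁴`: a smooth `Λ`-periodic map `Ψ : ℝ² → ℝ⁴` whose differential pulls the Euclidean
inner product back to `g`. -/
theorem result (ω₁ ω₂ : ℝ × ℝ) (hω : ω₁.1 * ω₂.2 - ω₁.2 * ω₂.1 ≠ 0) (E F G : ℝ × ℝ → ℝ)
    (sE : ContDiff ℝ ∞ E) (sF : ContDiff ℝ ∞ F) (sG : ContDiff ℝ ∞ G)
    (E1 : ∀ z, E (z + ω₁) = E z) (E2 : ∀ z, E (z + ω₂) = E z)
    (F1 : ∀ z, F (z + ω₁) = F z) (F2 : ∀ z, F (z + ω₂) = F z)
    (G1 : ∀ z, G (z + ω₁) = G z) (G2 : ∀ z, G (z + ω₂) = G z)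
    (hE : ∀ z, 0 < E z) (hD : ∀ z, 0 < E z * G z - F z ^ 2) :
    ∃ Ψ : ℝ × ℝ → EuclideanSpace ℝ (Fin 4), ContDiff ℝ ∞ Ψ ∧ (∀ z, Ψ (z + ω₁) = Ψ z) ∧
      (∀ z, Ψ (z + ω₂) = Ψ z) ∧ ∀ z v w : ℝ × ℝ,
        inner ℝ (fderiv ℝ Ψ z v) (fderiv ℝ Ψ z w) =
          E z * (v.1 * w.1) + F z * (v.1 * w.2 + v.2 * w.1) + G z * (v.2 * w.2) :=
  Vale.Agent.P205U.all_tori ω₁ ω₂ hω E F G sE sF sG ⟨E1, E2⟩ ⟨F1, F2⟩ ⟨G1, G2⟩ hE hD

end Vale.Agent.Results.P205.AllTori
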