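import Vale.Agent.P205V.Main

namespace Vale.Agent.Results.P205.AllToriManifold

open scoped Manifold ContDiff

/-- The model vector space of the torus: two copies of the model space of the circle. -/
def V : Type := EuclideanSpace ℝ (Fin 1) × EuclideanSpace ℝ (Fin 1)

noncomputable instance : NormedAddCommGroup V :=
  (inferInstance : NormedAddCommGroup (EuclideanSpace ℝ (Fin 1) × EuclideanSpace ℝ (Fin 1)))

noncomputable instance : NormedSpace ℝ V :=
  (inferInstance : NormedSpace ℝ (EuclideanSpace ℝ (Fin 1) × EuclideanSpace ℝ (Fin 1)))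

/-- The 2-torus: the product of two circles. -/
def T : Type := Circle × Circle

noncomputable instance : TopologicalSpace T :=
  (inferInstance : TopologicalSpace (Circle × Circle))

/-- The atlas of the torus: the product of the atlases of the two circles. -/
noncomputable instance : ChartedSpace V T :=
  (inferInstance : ChartedSpace
    (ModelProd (EuclideanSpace ℝ (Fin 1)) (EuclideanSpace ℝ (Fin 1))) (Circle × Circle))

/-- The model with corners of the torus: the product of those of the two circles. -/
noncomputable def I2 : ModelWithCorners ℝ V V := (𝓡 1).prod (𝓡 1)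

instance : IsManifold I2 ∞ T :=
  (inferInstance : IsManifold ((𝓡 1).prod (𝓡 1)) ∞ (Circle × Circle))

/-- The differential of a map from the torus to four-space, as a map of manifolds. -/
noncomputable def D (F : T → EuclideanSpace ℝ (Fin 4)) (p : T) : V →L[ℝ] EuclideanSpace ℝ (Fin 4) :=
  mfderiv I2 𝓘(ℝ, EuclideanSpace ℝ (Fin 4)) F p

/-- The smooth Riemannian metrics on the torus: Mathlib's smooth Riemannian metrics on its
tangent bundle. -/
def Met : Type := Bundle.ContMDiffRiemannianMetric I2 ∞ V (fun p : T => TangentSpace I2 p)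

/-- The inner product that the metric `g` puts on the tangent space at the point `p`. -/
noncomputable def Met.form (g : Met) (p : T) : V →L[ℝ] V →L[ℝ] ℝ :=
  Bundle.ContMDiffRiemannianMetric.inner g p

theorem result (g : Met) :
    ∃ F : T → EuclideanSpace ℝ (Fin 4),
      ContMDiff I2 𝓘(ℝ, EuclideanSpace ℝ (Fin 4)) ∞ F ∧
      (∀ (p : T) (v w : V), inner ℝ (D F p v) (D F p w) = g.form p v w) ∧
      ∀ p : T, Function.Injective (D F p) := by
  obtain ⟨F, sF, hF⟩ := Vale.Agent.P205V.torus_manifold g
  refine ⟨F, sF, hF, fun p => ?_⟩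
  rw [injective_iff_map_eq_zero]
  intro v hv
  by_contra hne
  have h1 := Bundle.ContMDiffRiemannianMetric.pos g p v hne
  have h2 := hF p v v
  have h4 : D F p v = 0 := hv
  have h5 : @inner ℝ (EuclideanSpace ℝ (Fin 4)) _ (D F p v) (D F p v) = g.form p v v := h2
  rw [h4] at h5
  have h6 : 0 < g.form p v v := h1
  rw [← h5] at h6
  have h3 : @inner ℝ (EuclideanSpace ℝ (Fin 4)) _ 0 0 = 0 := inner_zero_left _
  exact absurd h6 (not_lt.2 (le_of_eq h3))

end Vale.Agent.Results.P205.AllToriManifold
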