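import Vale.Agent.P205U.MainU

namespace Vale.Agent.Results.P205.AllToriTensor

open scoped ContDiff

/-- Every smooth Riemannian metric on every torus, in tensor form.  Let `ω₁, ω₂` be linearly
independent vectors of the plane and `Λ` the lattice (additive subgroup) they generate.  Let `g` be
ANY smooth field of symmetric positive definite bilinear forms on the plane that is invariant under
all translations by `Λ`, that is, an arbitrary smooth Riemannian metric on the torus `ℝ² / Λ`.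
Then there is a map `Φ` of the quotient group `ℝ² / Λ` into Euclidean `ℝ⁴` whose lift
`Ψ z = Φ (z mod Λ)` to the plane is smooth, has injective differential everywhere, and pulls the
Euclidean inner product back to `g`. -/
theorem result (ω₁ ω₂ : ℝ × ℝ) (hω : LinearIndependent ℝ ![ω₁, ω₂])
    (g : ℝ × ℝ → (ℝ × ℝ) →L[ℝ] (ℝ × ℝ) →L[ℝ] ℝ) (sg : ContDiff ℝ ∞ g)
    (hsymm : ∀ z v w, g z v w = g z w v) (hpos : ∀ z v, v ≠ 0 → 0 < g z v v)
    (hper : ∀ z, ∀ l ∈ AddSubgroup.closure {ω₁, ω₂}, g (z + l) = g z) :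
    ∃ Φ : (ℝ × ℝ) ⧸ AddSubgroup.closure {ω₁, ω₂} → EuclideanSpace ℝ (Fin 4),
      ContDiff ℝ ∞ (fun z : ℝ × ℝ => Φ (QuotientAddGroup.mk z)) ∧
      (∀ z v w : ℝ × ℝ,
        inner ℝ (fderiv ℝ (fun z : ℝ × ℝ => Φ (QuotientAddGroup.mk z)) z v)
          (fderiv ℝ (fun z : ℝ × ℝ => Φ (QuotientAddGroup.mk z)) z w) = g z v w) ∧
      ∀ z : ℝ × ℝ,
        Function.Injective (fderiv ℝ (fun z : ℝ × ℝ => Φ (QuotientAddGroup.mk z)) z) := by
  -- the determinant is non-zero
  have hdet : ω₁.1 * ω₂.2 - ω₁.2 * ω₂.1 ≠ 0 := by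
    intro h0
    rw [LinearIndependent.pair_iff] at hω
    have h1 := hω ω₂.2 (-ω₁.2) (by
      ext
      · simp only [Prod.fst_add, Prod.smul_fst, smul_eq_mul, Prod.fst_zero]; linarith
      · simp only [Prod.snd_add, Prod.smul_snd, smul_eq_mul, Prod.snd_zero]; ring)
    have h2 := hω ω₂.1 (-ω₁.1) (by
      ext
      · simp only [Prod.fst_add, Prod.smul_fst, smul_eq_mul, Prod.fst_zero]; ring
      · simp only [Prod.snd_add, Prod.smul_snd, smul_eq_mul, Prod.snd_zero]; linarith)
    have h3 := hω 1 0 (by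
      ext
      · simp only [Prod.fst_add, Prod.smul_fst, smul_eq_mul, Prod.fst_zero]; linarith [h2.2]
      · simp only [Prod.snd_add, Prod.smul_snd, smul_eq_mul, Prod.snd_zero]; linarith [h1.2])
    exact one_ne_zero h3.1
  have m1 : ω₁ ∈ AddSubgroup.closure {ω₁, ω₂} := AddSubgroup.subset_closure (by simp)
  have m2 : ω₂ ∈ AddSubgroup.closure {ω₁, ω₂} := AddSubgroup.subset_closure (by simp)
  -- bilinear expansion of the metric
  have hexp : ∀ z v w : ℝ × ℝ, g z v w =
      g z (1, 0) (1, 0) * (v.1 * w.1) + g z (1, 0) (0, 1) * (v.1 * w.2 + v.2 * w.1)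
        + g z (0, 1) (0, 1) * (v.2 * w.2) := by
    intro z v w
    have hv : v = v.1 • ((1 : ℝ), (0 : ℝ)) + v.2 • ((0 : ℝ), (1 : ℝ)) := by
      ext <;> simp
    have hw : w = w.1 • ((1 : ℝ), (0 : ℝ)) + w.2 • ((0 : ℝ), (1 : ℝ)) := by
      ext <;> simp
    conv_lhs => rw [hv, hw]
    simp only [map_add, map_smul, add_apply, smul_apply,
      smul_eq_mul]
    rw [hsymm z (0, 1) (1, 0)]
    ring
  have hE : ∀ z, 0 < g z (1, 0) (1, 0) := fun z => hpos z (1, 0) (by simp)
  have hD : ∀ z, 0 < g z (1, 0) (1, 0) * g z (0, 1) (0, 1) - g z (1, 0) (0, 1) ^ 2 := by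
    intro z
    have h := hpos z (-(g z (1, 0) (0, 1)), g z (1, 0) (1, 0)) (by
      intro h0
      have := congrArg Prod.snd h0
      simp only [Prod.snd_zero] at this
      exact (hE z).ne' this)
    rw [hexp] at h
    simp only at h
    have h' : 0 < g z (1, 0) (1, 0) *
        (g z (1, 0) (1, 0) * g z (0, 1) (0, 1) - g z (1, 0) (0, 1) ^ 2) := by nlinarith [h]
    exact (pos_iff_pos_of_mul_pos h').1 (hE z)
  obtain ⟨Ψ, sΨ, p1, p2, hΨ⟩ := Vale.Agent.P205U.all_tori ω₁ ω₂ hdet
    (fun z => g z (1, 0) (1, 0)) (fun z => g z (1, 0) (0, 1)) (fun z => g z (0, 1) (0, 1))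
    ((sg.clm_apply contDiff_const).clm_apply contDiff_const)
    ((sg.clm_apply contDiff_const).clm_apply contDiff_const)
    ((sg.clm_apply contDiff_const).clm_apply contDiff_const)
    ⟨fun z => by simp only [hper z ω₁ m1], fun z => by simp only [hper z ω₂ m2]⟩
    ⟨fun z => by simp only [hper z ω₁ m1], fun z => by simp only [hper z ω₂ m2]⟩
    ⟨fun z => by simp only [hper z ω₁ m1], fun z => by simp only [hper z ω₂ m2]⟩ hE hD
  -- periodicity under the whole lattice
  have pΛ : ∀ l ∈ AddSubgroup.closure {ω₁, ω₂}, ∀ z, Ψ (z + l) = Ψ z := by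
    intro l hl
    induction hl using AddSubgroup.closure_induction with
    | mem x hx =>
      intro z
      rcases hx with rfl | hx
      · exact p1 z
      · rw [Set.mem_singleton_iff] at hx
        subst hx
        exact p2 z
    | zero => intro z; simp
    | add x y _ _ hx hy => intro z; rw [← add_assoc, hy, hx]
    | neg x _ hx => intro z; have := hx (z + -x); rw [neg_add_cancel_right] at this; exact this.symm
  have hc : ∀ a b : ℝ × ℝ, (QuotientAddGroup.leftRel (AddSubgroup.closure {ω₁, ω₂})) a b →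
      Ψ a = Ψ b := by
    intro a b hab
    have hab' : -a + b ∈ AddSubgroup.closure {ω₁, ω₂} := QuotientAddGroup.leftRel_apply.1 hab
    have := pΛ _ hab' a
    rw [add_neg_cancel_left] at this
    exact this.symm
  refine ⟨Quotient.lift Ψ hc, ?_⟩
  change ContDiff ℝ ∞ Ψ ∧
    (∀ z v w : ℝ × ℝ, inner ℝ (fderiv ℝ Ψ z v) (fderiv ℝ Ψ z w) = g z v w) ∧
      ∀ z : ℝ × ℝ, Function.Injective (fderiv ℝ Ψ z)
  have hiso : ∀ z v w : ℝ × ℝ, inner ℝ (fderiv ℝ Ψ z v) (fderiv ℝ Ψ z w) = g z v w := by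
    intro z v w
    rw [hΨ, hexp z v w]
  refine ⟨sΨ, hiso, fun z => ?_⟩
  rw [injective_iff_map_eq_zero]
  intro v hv
  by_contra hne
  have h := hpos z v hne
  rw [← hiso z v v, hv, inner_zero_left] at h
  exact lt_irrefl _ h

end Vale.Agent.Results.P205.AllToriTensor
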