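import Vale.Agent.P205T.Main

namespace Vale.Agent.Results.P205.ConformalTori

open scoped ContDiff

/-- Every conformal metric on every torus.  Let `ω₁, ω₂` be linearly independent vectors of the
plane, `Λ` the lattice they span, and `ρ` ANY smooth `Λ`-periodic function.  The Riemannian metric
`exp (2 ρ) (dx² + dy²)` on the torus `ℝ² / Λ` has a smooth isometric immersion into Euclidean `ℝ⁴`:
a smooth `Λ`-periodic map `F : ℝ² → ℝ⁴` whose differential pulls the Euclidean inner product back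
to the metric. -/
theorem result (ω₁ ω₂ : ℝ × ℝ) (hω : ω₁.1 * ω₂.2 - ω₁.2 * ω₂.1 ≠ 0) (ρ : ℝ × ℝ → ℝ)
    (hρ : ContDiff ℝ ∞ ρ) (h1 : ∀ z, ρ (z + ω₁) = ρ z) (h2 : ∀ z, ρ (z + ω₂) = ρ z) :
    ∃ F : ℝ × ℝ → EuclideanSpace ℝ (Fin 4), ContDiff ℝ ∞ F ∧ (∀ z, F (z + ω₁) = F z) ∧
      (∀ z, F (z + ω₂) = F z) ∧ ∀ z v w : ℝ × ℝ,
        inner ℝ (fderiv ℝ F z v) (fderiv ℝ F z w) =
          Real.exp (2 * ρ z) * (v.1 * w.1 + v.2 * w.2) :=
  Vale.Agent.P205T.conformal_torus ω₁ ω₂ hω ρ hρ h1 h2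

end Vale.Agent.Results.P205.ConformalTori
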